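import Mathlib

open Equiv Equiv.Perm Function SimpleGraph

namespace Vale.Agent.Lib.P039

set_option linter.unusedSectionVars false

variable {V : Type*} [Fintype V] [DecidableEq V] {G : SimpleGraph V} [DecidableRel G.Adj]

/-- A rotation system on a graph `G` (a combinatorial embedding of `G` in an oriented surface):
a permutation `rot` of the darts (oriented edges) of `G` which keeps the tail of every dart and
permutes the darts with a given tail in one single cycle. -/
structure RotationSystem (G : SimpleGraph V) where
  rot : Equiv.Perm G.Dart
  fst_rot : ∀ d, (rot d).fst = d.fst
  sameCycle_rot : ∀ d d' : G.Dart, d.fst = d'.fst → rot.SameCycle d d'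

/-- The face permutation `d ↦ rot (reverse of d)`. Its cycles are the facial walks (the faces) of
the embedding; a dart `d` lies on exactly one face, and the reverse dart `d.symm` lies on the face
on the other side of the edge. -/
def RotationSystem.face (R : RotationSystem G) : Equiv.Perm G.Dart where
  toFun d := R.rot d.symm
  invFun d := (R.rot.symm d).symm
  left_inv := by intro d; simp
  right_inv := by intro d; simp

/-- A proper colouring of the faces with three colours: `c d` is the colour of the face through the
dart `d`; it is constant along every facial walk, and the two faces on the two sides of an edge
get different colours. -/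
structure IsProperFaceColouring (R : RotationSystem G) (c : G.Dart → Fin 3) : Prop where
  face_inv : ∀ d, c (R.face d) = c d
  symm_ne : ∀ d, c d.symm ≠ c d

/-- The size (number of darts, that is of edges, on the facial walk) of the face through `d`. -/
noncomputable def faceSize (R : RotationSystem G) (d : G.Dart) : ℕ := minimalPeriod R.face d

end Vale.Agent.Lib.P039
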