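import Vale.Agent.Lib.P039.Main

open Equiv Equiv.Perm Function SimpleGraph

namespace Vale.Agent.Lib.P039

set_option linter.unusedSectionVars false

variable {V : Type*} [Fintype V] [DecidableEq V] {G : SimpleGraph V} [DecidableRel G.Adj]
variable {R : RotationSystem G} {c : G.Dart → Fin 3}

section forest

variable (hG : G.IsRegularOfDegree 3) (hc : IsProperFaceColouring R c)
include hG hc

omit hG in
lemma col_of_sameCycle {d d' : G.Dart} (hs : R.face.SameCycle d d') : c d' = c d := by
  obtain ⟨k, hk⟩ := hs.exists_nat_pow_eq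
  rw [← hk]
  have : ∀ k : ℕ, c ((R.face ^ k) d) = c d := by
    intro k
    induction k with
    | zero => simp
    | succ k ih => rw [pow_succ', Perm.mul_apply, hc.face_inv, ih]
  exact this k

/-- Main theorem, form with an acyclicity condition on the outer side. -/
theorem hamiltonian_forest (hconn : G.Connected) (P : G.Dart → Prop)
    (hP : ∀ d, P (R.face d) ↔ P d)
    (hP1 : ∀ d, P d → c d = 1) (hP4 : ∀ d, P d → faceSize R d ≠ 4)
    (hi : ∀ g g' : G.Dart, c g = 0 → R.face.SameCycle g g' → P g.symm → P g'.symm → g = g')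
    (ho : ∀ S : Set G.Dart, S.Nonempty →
      (∀ f ∈ S, c f = 1 ∧ c f.symm = 2 ∧ faceSize R f ≠ 4 ∧ ¬ P f) →
      ∃ f ∈ S, (∀ g' : G.Dart, R.face.SameCycle f.symm g' → g' ≠ f.symm → g'.symm ∉ S) ∨
        (∀ f' : G.Dart, R.face.SameCycle f f' → f' ≠ f → f' ∉ S)) :
    G.IsHamiltonian := by
  classical
  let μ : Perm V → ℕ := fun τ => (Finset.univ.filter fun p : V × V => τ.SameCycle p.1 p.2).card
  obtain ⟨τ, hτ, hmax⟩ := Set.exists_max_image {τ : Perm V | Inv R c P τ} μ (Set.toFinite _)
    ⟨_, inv_init hG hc P hP hP1 hP4 hi⟩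
  have hτ : Inv R c P τ := hτ
  -- all quadrilaterals are merged
  have hquad : ∀ q, c q = 1 → c q.symm = 0 → faceSize R q = 4 →
      τ.SameCycle q.fst (R.face (R.face q)).fst := by
    intro q h1 h0 h4
    by_contra hns
    obtain ⟨hI, hco, hnew⟩ := inv_step hG hc P hτ h1 h0 h4 hns
    have hle := hmax _ hI
    have hlt : μ τ < μ (swap q.fst (R.face (R.face q)).fst * τ) := by
      apply Finset.card_lt_card
      rw [Finset.ssubset_iff_of_subset]
      · refine ⟨(q.fst, (R.face (R.face q)).fst), ?_, ?_⟩
        · simp only [Finset.mem_filter, Finset.mem_univ, true_and]; exact hnew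
        · simp only [Finset.mem_filter, Finset.mem_univ, true_and]; exact hns
      · intro p hp
        simp only [Finset.mem_filter, Finset.mem_univ, true_and] at hp ⊢
        exact hco _ _ hp
    omega
  -- colour-1 darts on quadrilaterals with opposite colour 2
  have hq12 : ∀ f, c f = 1 → c f.symm = 2 → faceSize R f = 4 → τ.SameCycle f.fst f.snd := by
    intro f h1 h2 h4
    obtain ⟨q, rfl⟩ := R.face.surjective f
    have hq1 : c q = 1 := by rw [← hc.face_inv, h1]
    have hq4 : faceSize R q = 4 := by rw [← faceSize_face, h4]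
    have hq0 : c q.symm = 0 := by
      apply fin3_eq0
      · have := hc.symm_ne q; rwa [hq1] at this
      · intro h; exact col_alt hG hc q (h2.trans h.symm)
    have e1 : τ.SameCycle q.snd q.fst := hτ.col0 q.symm hq0
    have e2 := hquad q hq1 hq0 hq4
    rw [fst_face, snd_eq_fst_face (R := R) (R.face q)]
    exact e1.trans e2
  -- all colour-1 darts with opposite colour 2
  have h12 : ∀ f, c f = 1 → c f.symm = 2 → τ.SameCycle f.fst f.snd := by
    by_contra hcon
    have hne : ({f : G.Dart | c f = 1 ∧ c f.symm = 2 ∧ faceSize R f ≠ 4 ∧ ¬ P f ∧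
        ¬ τ.SameCycle f.fst f.snd} : Set G.Dart).Nonempty := by
      by_contra hemp
      apply hcon
      intro f h1 h2
      by_contra hns
      apply hemp
      refine ⟨f, h1, h2, ?_, ?_, hns⟩
      · intro h4
        exact hns (hq12 f h1 h2 h4)
      · intro hPf
        exact hns (hτ.insP f hPf h2)
    obtain ⟨f, hfS, hAB⟩ := ho _ hne (fun f hf => ⟨hf.1, hf.2.1, hf.2.2.1, hf.2.2.2.1⟩)
    obtain ⟨h1, h2, h4, hPf, hns⟩ := hfS
    apply hns
    rcases hAB with hA | hB
    · have : τ.SameCycle f.symm.fst f.symm.snd := by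
        apply around
        intro g' hs hne'
        have hg2 : c g' = 2 := by rw [col_of_sameCycle hc hs, h2]
        by_cases hg0 : c g'.symm = 0
        · exact (hτ.col0 g'.symm hg0).symm
        have hg1 : c g'.symm = 1 := by
          have h3 := hc.symm_ne g'
          rw [hg2] at h3
          revert h3 hg0
          generalize c g'.symm = x
          revert x
          decide
        have hss : c g'.symm.symm = 2 := by rw [Dart.symm_symm, hg2]
        by_cases hg4 : faceSize R g'.symm = 4
        · exact (hq12 g'.symm hg1 hss hg4).symm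
        by_cases hgP : P g'.symm
        · exact (hτ.insP g'.symm hgP hss).symm
        by_contra hnot
        apply hA g' hs hne'
        refine ⟨hg1, hss, hg4, hgP, ?_⟩
        intro hsc
        exact hnot hsc.symm
      exact this.symm
    · apply around
      intro f' hs hne'
      have hf1 : c f' = 1 := by rw [col_of_sameCycle hc hs, h1]
      by_cases hf0 : c f'.symm = 0
      · exact (hτ.col0 f'.symm hf0).symm
      have hf2 : c f'.symm = 2 := by
        apply fin3_eq2 _ _ hf0
        have h3 := hc.symm_ne f'
        rwa [hf1] at h3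
      by_cases hf4 : faceSize R f' = 4
      · exact hq12 f' hf1 hf2 hf4
      by_cases hfP : P f'
      · exact hτ.insP f' hfP hf2
      by_contra hnot
      exact hB f' hs hne' ⟨hf1, hf2, hf4, hfP, hnot⟩
  have hedge : ∀ d : G.Dart, τ.SameCycle d.fst d.snd := by
    intro d
    by_cases h0 : c d = 0
    · exact hτ.col0 d h0
    by_cases h0' : c d.symm = 0
    · exact (hτ.col0 d.symm h0').symm
    have hne := hc.symm_ne d
    by_cases h1 : c d = 1
    · apply h12 d h1
      apply fin3_eq2 _ _ h0'
      rwa [h1] at hne
    · have h2 : c d = 2 := fin3_eq2 _ h1 h0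
      have h1' : c d.symm = 1 := by
        rw [h2] at hne
        revert hne h0'
        generalize c d.symm = x
        revert x
        decide
      exact (h12 d.symm h1' (by rw [Dart.symm_symm, h2])).symm
  have hall : ∀ x y, τ.SameCycle x y := by
    intro x y
    obtain ⟨p⟩ := hconn.preconnected x y
    induction p with
    | nil => exact SameCycle.rfl
    | cons hadj _ ih => exact (hedge ⟨(_, _), hadj⟩).trans ih
  apply hamiltonian_of_perm τ hτ.adj hall
  obtain ⟨v⟩ := hconn.nonempty
  have := G.degree_lt_card_verts v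
  rw [hG v] at this
  omega

end forest

end Vale.Agent.Lib.P039
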