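import Mathlib

open Equiv Equiv.Perm Function

namespace Vale.Agent.Lib.P039

set_option linter.unusedSectionVars false

variable {V : Type*} [Fintype V] [DecidableEq V]

/-- powers of `ρ * τ` follow `τ` as long as we stay off the support of `ρ` -/
lemma pow_mul_eq (τ ρ : Perm V) (x : V) (k : ℕ)
    (h : ∀ j, 0 < j → j ≤ k → ρ ((τ ^ j) x) = (τ ^ j) x) :
    ((ρ * τ) ^ k) x = (τ ^ k) x := by
  induction k with
  | zero => simp
  | succ k ih =>
    have ih' := ih (fun j hj hjk => h j hj (Nat.le_succ_of_le hjk))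
    have := h (k+1) (Nat.succ_pos k) le_rfl
    rw [pow_succ', Perm.mul_apply, ih', Perm.mul_apply]
    rw [pow_succ', Perm.mul_apply] at this
    rw [this, pow_succ', Perm.mul_apply]

/-- Merging lemma. If distinct points moved by `ρ` lie in distinct cycles of `τ`, then the cycles of
`ρ * τ` are unions of cycles of `τ`, and `x` and `ρ x` lie in the same cycle of `ρ * τ`. -/
lemma merge (τ ρ : Perm V)
    (h : ∀ x y, ρ x ≠ x → ρ y ≠ y → τ.SameCycle x y → x = y) :
    (∀ x y, τ.SameCycle x y → (ρ * τ).SameCycle x y) ∧ ∀ x, (ρ * τ).SameCycle x (ρ x) := by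
  -- key: from a moved point p, the (ρτ)-orbit follows the τ-orbit until it returns
  have key : ∀ p, ρ p ≠ p → ∀ j, j < minimalPeriod τ p → ((ρ * τ) ^ j) p = (τ ^ j) p := by
    intro p hp j hj
    apply pow_mul_eq
    intro i hi hij
    by_contra hne
    have hs : τ.SameCycle ((τ ^ i) p) p := by
      rw [sameCycle_pow_left]
    have := h _ _ hne hp hs
    have hper : IsPeriodicPt τ i p := by
      unfold IsPeriodicPt IsFixedPt
      rw [← Perm.coe_pow]; exact this
    have := hper.minimalPeriod_le hi
    omega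
  have hpos : ∀ p, 0 < minimalPeriod τ p := by
    intro p
    exact minimalPeriod_pos_of_mem_periodicPts (by
      have := isOfFinOrder_of_finite τ
      obtain ⟨n, hn, hn'⟩ := this.exists_pow_eq_one
      refine ⟨n, hn, ?_⟩
      unfold IsPeriodicPt IsFixedPt
      rw [← Perm.coe_pow, hn']; rfl)
  have hb : ∀ p, ρ p ≠ p → (ρ * τ).SameCycle p (ρ p) := by
    intro p hp
    obtain ⟨L, hL⟩ : ∃ L, minimalPeriod τ p = L + 1 := ⟨minimalPeriod τ p - 1, by have := hpos p; omega⟩
    have h1 := key p hp L (by omega)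
    refine ⟨((L + 1 : ℕ) : ℤ), ?_⟩
    rw [zpow_natCast, pow_succ', Perm.mul_apply, h1, Perm.mul_apply]
    congr 1
    have : (τ ^ (L+1)) p = p := by
      have := isPeriodicPt_minimalPeriod τ p
      rw [hL] at this
      unfold IsPeriodicPt IsFixedPt at this
      rw [← Perm.coe_pow] at this; exact this
    rw [pow_succ', Perm.mul_apply] at this
    exact this
  -- every point in the τ-cycle of a moved point p is in the (ρτ)-cycle of p
  have hc : ∀ p, ρ p ≠ p → ∀ x, τ.SameCycle p x → (ρ * τ).SameCycle p x := by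
    intro p hp x hx
    obtain ⟨i, hi⟩ := hx.exists_nat_pow_eq
    have : (τ ^ (i % minimalPeriod τ p)) p = x := by
      rw [← hi]
      have := iterate_mod_minimalPeriod_eq (f := τ) (x := p) (n := i)
      rw [← Perm.coe_pow, ← Perm.coe_pow] at this
      exact this
    rw [← this, ← key p hp _ (Nat.mod_lt _ (hpos p))]
    exact (sameCycle_pow_right).2 SameCycle.rfl
  refine ⟨?_, ?_⟩
  · intro x y hxy
    by_cases hex : ∃ p, ρ p ≠ p ∧ τ.SameCycle p x
    · obtain ⟨p, hp, hpx⟩ := hex
      exact (hc p hp x hpx).symm.trans (hc p hp y (hpx.trans hxy))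
    · push Not at hex
      obtain ⟨i, hi⟩ := hxy.exists_nat_pow_eq
      rw [← hi, ← pow_mul_eq τ ρ x i]
      · exact (sameCycle_pow_right).2 SameCycle.rfl
      · intro j _ _
        by_contra hne
        exact hex _ hne ((sameCycle_pow_left).2 SameCycle.rfl)
  · intro x
    by_cases hx : ρ x = x
    · rw [hx]
    · exact hb x hx

end Vale.Agent.Lib.P039
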