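import Vale.Agent.Lib.P039.Maps
import Vale.Agent.Lib.P039.Merge

open Equiv Equiv.Perm Function SimpleGraph

namespace Vale.Agent.Lib.P039

set_option linter.unusedSectionVars false

variable {V : Type*} [Fintype V] [DecidableEq V] {G : SimpleGraph V} [DecidableRel G.Adj]

/-- A permutation of the vertices which moves every vertex to a neighbour and has a single cycle
gives a Hamiltonian cycle. -/
lemma hamiltonian_of_perm (τ : Perm V) (hadj : ∀ v, G.Adj v (τ v))
    (hcyc : ∀ x y, τ.SameCycle x y) (hcard : 3 ≤ Fintype.card V) : G.IsHamiltonian := by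
  intro _
  have hne : Nonempty V := Fintype.card_pos_iff.1 (by omega)
  obtain ⟨v0⟩ := hne
  have hon : τ.IsCycleOn ((Finset.univ : Finset V) : Set V) := by
    refine ⟨?_, fun x _ y _ => hcyc x y⟩
    simp
  have hpow : ∀ m n : ℕ, (τ ^ m) v0 = (τ ^ n) v0 ↔ m ≡ n [MOD Fintype.card V] := by
    intro m n
    have := hon.pow_apply_eq_pow_apply (a := v0) (by simp) (m := m) (n := n)
    simpa using this
  have hcont : cycleGraph (Fintype.card V) ⊑ G := by
    refine ⟨⟨⟨fun k => (τ ^ k.val) v0, ?_⟩, ?_⟩⟩
    · intro u v huv
      have key : ∀ u v : Fin (Fintype.card V), (u - v).val = 1 →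
          G.Adj ((τ ^ v.val) v0) ((τ ^ u.val) v0) := by
        intro u v h
        have h1 : (τ ^ u.val) v0 = (τ ^ (v.val + 1)) v0 := by
          rw [hpow]
          have h3 : ((Fintype.card V - v.val) + u.val) % Fintype.card V = 1 := by
            rw [← h]; exact (Fin.val_sub u v).symm
          have h4 : (Fintype.card V - v.val) + u.val ≡ 1 [MOD Fintype.card V] := by
            unfold Nat.ModEq
            rw [h3, Nat.mod_eq_of_lt (by omega)]
          have h5 : v.val + ((Fintype.card V - v.val) + u.val) ≡ v.val + 1 [MOD Fintype.card V] :=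
            h4.add_left _
          have h6 : v.val + ((Fintype.card V - v.val) + u.val) = u.val + Fintype.card V := by
            have := v.isLt
            omega
          rw [h6] at h5
          exact (Nat.add_modulus_modEq_iff).1 h5
        rw [h1, pow_succ', Perm.mul_apply]
        exact hadj _
      rcases cycleGraph_adj'.1 huv with h | h
      · exact (key u v h).symm
      · exact key v u h
    · intro u v huv
      have h1 : (τ ^ u.val) v0 = (τ ^ v.val) v0 := huv
      rw [hpow] at h1
      have := Nat.ModEq.eq_of_lt_of_lt h1 u.isLt v.isLt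
      exact Fin.ext this
  obtain ⟨v, p, hp, hlen⟩ := (cycleGraph_isContained_iff (by omega)).1 hcont
  exact ⟨v, p, Walk.isHamiltonianCycle_iff_isCycle_and_length_eq.2 ⟨hp, hlen⟩⟩

end Vale.Agent.Lib.P039
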