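import Vale.Agent.Lib.P039.Maps
import Vale.Agent.Lib.P039.Merge
import Vale.Agent.Lib.P039.PermHam

open Equiv Equiv.Perm Function SimpleGraph

namespace Vale.Agent.Lib.P039

set_option linter.unusedSectionVars false

variable {V : Type*} [Fintype V] [DecidableEq V] {G : SimpleGraph V} [DecidableRel G.Adj]

lemma perm_mem_periodicPts {α : Type*} [Finite α] (f : Perm α) (x : α) : x ∈ periodicPts f := by
  have := isOfFinOrder_of_finite f
  obtain ⟨n, hn, hn'⟩ := this.exists_pow_eq_one
  refine ⟨n, hn, ?_⟩
  unfold IsPeriodicPt IsFixedPt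
  rw [← Perm.coe_pow, hn']; rfl

variable {R : RotationSystem G} {c : G.Dart → Fin 3}

lemma faceSize_face (d : G.Dart) : faceSize R (R.face d) = faceSize R d :=
  minimalPeriod_apply (perm_mem_periodicPts _ _)

lemma face_four {q : G.Dart} (h : faceSize R q = 4) :
    R.face (R.face (R.face (R.face q))) = q := by
  have := isPeriodicPt_minimalPeriod R.face q
  unfold faceSize at h
  rw [h] at this
  exact this

lemma snd_eq_fst_face (d : G.Dart) : d.snd = (R.face d).fst := (fst_face R d).symm

lemma fin3_eq0 : ∀ x : Fin 3, x ≠ 1 → x ≠ 2 → x = 0 := by decide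
lemma fin3_eq2 : ∀ x : Fin 3, x ≠ 1 → x ≠ 0 → x = 2 := by decide

section main

variable (hG : G.IsRegularOfDegree 3) (hc : IsProperFaceColouring R c)
include hG hc

/-- for a colour-1 dart whose opposite has colour 0, the next one has opposite colour 2 -/
lemma next_opp2 {f : G.Dart} (h1 : c f = 1) (h0 : c f.symm = 0) : c (R.face f).symm = 2 := by
  apply fin3_eq2
  · have := hc.symm_ne (R.face f); rwa [hc.face_inv, h1] at this
  · have := col_alt hG hc f; rwa [h0] at this

lemma next_opp0 {f : G.Dart} (h1 : c f = 1) (h2 : c f.symm = 2) : c (R.face f).symm = 0 := by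
  apply fin3_eq0
  · have := hc.symm_ne (R.face f); rwa [hc.face_inv, h1] at this
  · have := col_alt hG hc f; rwa [h2] at this

/-- the colour-0 dart leaving `v` -/
noncomputable def out0 (v : V) : G.Dart := Classical.choose (exists_out hG hc v 0)

lemma out0_fst (v : V) : (out0 hG hc v).fst = v := (Classical.choose_spec (exists_out hG hc v 0)).1
lemma out0_col (v : V) : c (out0 hG hc v) = 0 := (Classical.choose_spec (exists_out hG hc v 0)).2

lemma eq_out0 {d : G.Dart} (h : c d = 0) : out0 hG hc d.fst = d :=
  out_unique hG hc (out0_fst hG hc _) ((out0_col hG hc _).trans h.symm)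

open Classical in
/-- the boundary dart leaving `v` -/
noncomputable def bd (P : G.Dart → Prop) (v : V) : G.Dart :=
  if P (out0 hG hc v).symm then R.face (out0 hG hc v).symm else out0 hG hc v

lemma bd_fst (P : G.Dart → Prop) (v : V) : (bd hG hc P v).fst = v := by
  unfold bd
  split_ifs
  · rw [fst_face]; exact out0_fst hG hc v
  · exact out0_fst hG hc v

lemma bd_inj_aux (P : G.Dart → Prop) (hP : ∀ d, P d → P (R.face d)) (hP1 : ∀ d, P d → c d = 1)
    {v v' : V} (hv : ¬ P (out0 hG hc v).symm) (hv' : P (out0 hG hc v').symm)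
    (h : (out0 hG hc v).snd = (R.face (out0 hG hc v').symm).snd) : False := by
  set f := R.face (out0 hG hc v').symm with hf
  have hf1 : c f = 1 := by rw [hf, hc.face_inv]; exact hP1 _ hv'
  have hf2 : c f.symm = 2 := by
    apply next_opp2 hG hc (hP1 _ hv')
    rw [Dart.symm_symm]; exact out0_col hG hc v'
  have hg0 : c (R.face f).symm = 0 := next_opp0 hG hc hf1 hf2
  have hg : (R.face f).symm = out0 hG hc v := by
    apply in_unique hG hc
    · rw [h]
      show (R.face f).fst = f.snd
      exact fst_face R f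
    · rw [hg0, out0_col hG hc]
  apply hv
  rw [← hg, Dart.symm_symm]
  exact hP _ (hP _ hv')

lemma bd_inj (P : G.Dart → Prop) (hP : ∀ d, P d → P (R.face d)) (hP1 : ∀ d, P d → c d = 1) :
    Injective (fun v => (bd hG hc P v).snd) := by
  intro v v' h
  simp only at h
  by_cases hv : P (out0 hG hc v).symm <;> by_cases hv' : P (out0 hG hc v').symm
  · have h1 : bd hG hc P v = bd hG hc P v' := by
      apply in_unique hG hc h
      unfold bd
      rw [if_pos hv, if_pos hv', hc.face_inv, hc.face_inv, hP1 _ hv, hP1 _ hv']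
    rw [← bd_fst hG hc P v, h1, bd_fst]
  · exfalso
    unfold bd at h
    rw [if_pos hv, if_neg hv'] at h
    exact bd_inj_aux hG hc P hP hP1 hv' hv h.symm
  · exfalso
    unfold bd at h
    rw [if_neg hv, if_pos hv'] at h
    exact bd_inj_aux hG hc P hP hP1 hv hv' h
  · have h1 : bd hG hc P v = bd hG hc P v' := by
      apply in_unique hG hc h
      unfold bd
      rw [if_neg hv, if_neg hv', out0_col hG hc, out0_col hG hc]
    rw [← bd_fst hG hc P v, h1, bd_fst]

/-- the successor permutation -/
noncomputable def tauP (P : G.Dart → Prop) (hP : ∀ d, P d → P (R.face d))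
    (hP1 : ∀ d, P d → c d = 1) : Perm V :=
  Equiv.ofBijective _ (Finite.injective_iff_bijective.1 (bd_inj hG hc P hP hP1))

lemma tauP_apply (P : G.Dart → Prop) (hP : ∀ d, P d → P (R.face d))
    (hP1 : ∀ d, P d → c d = 1) (v : V) : tauP hG hc P hP hP1 v = (bd hG hc P v).snd := rfl

lemma tauP_adj (P : G.Dart → Prop) (hP : ∀ d, P d → P (R.face d))
    (hP1 : ∀ d, P d → c d = 1) (v : V) : G.Adj v (tauP hG hc P hP hP1 v) := by
  have := (bd hG hc P v).adj
  rwa [bd_fst] at this


/-- the permutation whose cycles are the colour-0 faces -/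
noncomputable def tau0 : Perm V :=
  tauP hG hc (fun _ => False) (fun _ h => h) (fun _ h => h.elim)

lemma tau0_apply (v : V) : tau0 hG hc v = (out0 hG hc v).snd := by
  unfold tau0
  rw [tauP_apply]
  unfold bd
  rw [if_neg (fun h => h)]

lemma tau0_fst {d : G.Dart} (h : c d = 0) : tau0 hG hc d.fst = d.snd := by
  rw [tau0_apply, eq_out0 hG hc h]

lemma out0_tau0 (v : V) : out0 hG hc (tau0 hG hc v) = R.face (out0 hG hc v) := by
  have h : c (R.face (out0 hG hc v)) = 0 := by rw [hc.face_inv, out0_col hG hc]
  have := eq_out0 hG hc h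
  rw [fst_face, ← tau0_apply] at this
  exact this

lemma out0_tau0_pow (v : V) (k : ℕ) :
    out0 hG hc ((tau0 hG hc ^ k) v) = (R.face ^ k) (out0 hG hc v) := by
  induction k with
  | zero => simp
  | succ k ih => rw [pow_succ', Perm.mul_apply, out0_tau0, ih, pow_succ', Perm.mul_apply]

lemma sameCycle_out0 {v v' : V} (h : (tau0 hG hc).SameCycle v v') :
    R.face.SameCycle (out0 hG hc v) (out0 hG hc v') := by
  obtain ⟨k, hk⟩ := h.exists_nat_pow_eq
  rw [← hk, out0_tau0_pow]
  exact sameCycle_pow_right.2 SameCycle.rfl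

/-- the invariant kept during the merging process -/
structure Inv (R : RotationSystem G) (c : G.Dart → Fin 3) (P : G.Dart → Prop) (τ : Perm V) :
    Prop where
  adj : ∀ v, G.Adj v (τ v)
  col0 : ∀ d, c d = 0 → τ.SameCycle d.fst d.snd
  insP : ∀ f, P f → c f.symm = 2 → τ.SameCycle f.fst f.snd
  quad : ∀ q, c q = 1 → c q.symm = 0 → faceSize R q = 4 →
    (τ q.snd = q.fst ∧ τ (R.face (R.face q)).snd = (R.face (R.face q)).fst) ∨
      τ.SameCycle q.fst (R.face (R.face q)).fst

lemma tauP_of_not (P : G.Dart → Prop) (hP : ∀ d, P d → P (R.face d))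
    (hP1 : ∀ d, P d → c d = 1) {q : G.Dart} (h0 : c q.symm = 0) (hq : ¬ P q) :
    tauP hG hc P hP hP1 q.snd = q.fst := by
  have h1 : out0 hG hc q.snd = q.symm := eq_out0 hG hc h0
  rw [tauP_apply]
  unfold bd
  rw [h1, Dart.symm_symm, if_neg hq]
  rfl

lemma tauP_of_mem (P : G.Dart → Prop) (hP : ∀ d, P d → P (R.face d))
    (hP1 : ∀ d, P d → c d = 1) {q : G.Dart} (h0 : c q.symm = 0) (hq : P q) :
    tauP hG hc P hP hP1 q.snd = (R.face q).snd := by
  have h1 : out0 hG hc q.snd = q.symm := eq_out0 hG hc h0
  rw [tauP_apply]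
  unfold bd
  rw [h1, Dart.symm_symm, if_pos hq]

lemma inv_init (P : G.Dart → Prop) (hP : ∀ d, P (R.face d) ↔ P d)
    (hP1 : ∀ d, P d → c d = 1) (hP4 : ∀ d, P d → faceSize R d ≠ 4)
    (hi : ∀ g g' : G.Dart, c g = 0 → R.face.SameCycle g g' → P g.symm → P g'.symm → g = g') :
    Inv R c P (tauP hG hc P (fun d => (hP d).2) hP1) := by
  set τ₁ := tauP hG hc P (fun d => (hP d).2) hP1 with hτ₁
  set τ₀ := tau0 hG hc with hτ₀
  have hmul : τ₁ = (τ₁ * τ₀⁻¹) * τ₀ := by simp
  have hmoved : ∀ x, (τ₁ * τ₀⁻¹) x ≠ x → P (out0 hG hc (τ₀⁻¹ x)).symm := by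
    intro x hx
    by_contra hn
    apply hx
    rw [Perm.mul_apply, hτ₁, tauP_apply]
    unfold bd
    rw [if_neg hn, ← tau0_apply]
    simp [hτ₀]
  have hM := merge τ₀ (τ₁ * τ₀⁻¹) (by
    intro x y hx hy hxy
    have h1 : τ₀.SameCycle (τ₀⁻¹ x) (τ₀⁻¹ y) := by
      have e1 : τ₀⁻¹ x = τ₀.symm x := rfl
      have e2 : τ₀⁻¹ y = τ₀.symm y := rfl
      rw [e1, e2, sameCycle_symm_apply_left, sameCycle_symm_apply_right]
      exact hxy
    have h2 := hi _ _ (out0_col hG hc _) (sameCycle_out0 hG hc h1) (hmoved x hx) (hmoved y hy)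
    have h3 : τ₀⁻¹ x = τ₀⁻¹ y := by
      rw [← out0_fst hG hc (τ₀⁻¹ x), h2, out0_fst]
    exact τ₀⁻¹.injective h3)
  rw [← hmul] at hM
  refine ⟨tauP_adj hG hc P _ hP1, ?_, ?_, ?_⟩
  · intro d hd
    apply hM.1
    rw [← tau0_fst hG hc hd]
    exact sameCycle_apply_right.2 SameCycle.rfl
  · intro f hf hf2
    -- f = face f'
    obtain ⟨f', rfl⟩ := R.face.surjective f
    have hf' : P f' := (hP f').1 hf
    have h0 : c f'.symm = 0 := by
      apply fin3_eq0
      · have := hc.symm_ne f'; rwa [hP1 _ hf'] at this
      · intro h; exact col_alt hG hc f' (hf2.trans h.symm)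
    have := tauP_of_mem hG hc P (fun d => (hP d).2) hP1 h0 hf'
    rw [fst_face, ← this]
    exact sameCycle_apply_right.2 SameCycle.rfl
  · intro q h1 h0 h4
    left
    refine ⟨tauP_of_not hG hc P _ hP1 h0 (fun h => hP4 _ h h4), ?_⟩
    apply tauP_of_not hG hc P _ hP1
    · exact next_opp0 hG hc (by rw [hc.face_inv, h1]) (next_opp2 hG hc h1 h0)
    · intro h
      apply hP4 _ h
      rw [faceSize_face, faceSize_face, h4]


lemma inv_step (P : G.Dart → Prop) {τ : Perm V} (h : Inv R c P τ) {q : G.Dart}
    (h1 : c q = 1) (h0 : c q.symm = 0) (h4 : faceSize R q = 4)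
    (hns : ¬ τ.SameCycle q.fst (R.face (R.face q)).fst) :
    Inv R c P (swap q.fst (R.face (R.face q)).fst * τ) ∧
    (∀ x y, τ.SameCycle x y → (swap q.fst (R.face (R.face q)).fst * τ).SameCycle x y) ∧
    (swap q.fst (R.face (R.face q)).fst * τ).SameCycle q.fst (R.face (R.face q)).fst := by
  set a := q.fst with ha
  set c' := (R.face (R.face q)).fst with hc'
  have hac : a ≠ c' := fun e => hns (by rw [e])
  obtain ⟨hb, hd⟩ : τ q.snd = a ∧ τ (R.face (R.face q)).snd = c' := by
    rcases h.quad q h1 h0 h4 with h' | h'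
    · exact h'
    · exact absurd h' hns
  have hM := merge τ (swap a c') (by
    intro x y hx hy hxy
    rw [swap_apply_ne_self_iff] at hx hy
    rcases hx.2 with rfl | rfl <;> rcases hy.2 with rfl | rfl
    · rfl
    · exact absurd hxy hns
    · exact absurd hxy.symm hns
    · rfl)
  have hsame : (swap a c' * τ).SameCycle a c' := by
    have := hM.2 a
    rwa [swap_apply_left] at this
  refine ⟨⟨?_, ?_, ?_, ?_⟩, hM.1, hsame⟩
  · intro v
    rw [Perm.mul_apply]
    by_cases hva : τ v = a
    · have hv : v = q.snd := τ.injective (hva.trans hb.symm)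
      rw [hva, swap_apply_left, hv, hc', fst_face, snd_eq_fst_face (R := R) q]
      exact (R.face q).adj
    · by_cases hvc : τ v = c'
      · have hv : v = (R.face (R.face q)).snd := τ.injective (hvc.trans hd.symm)
        rw [hvc, swap_apply_right, hv, snd_eq_fst_face (R := R) (R.face (R.face q))]
        have : a = (R.face (R.face (R.face q))).snd := by
          rw [snd_eq_fst_face (R := R), face_four h4]
        rw [this]
        exact (R.face (R.face (R.face q))).adj
      · rw [swap_apply_of_ne_of_ne hva hvc]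
        exact h.adj v
  · intro d hd0
    exact hM.1 _ _ (h.col0 d hd0)
  · intro f hf hf2
    exact hM.1 _ _ (h.insP f hf hf2)
  · intro q' h1' h0' h4'
    have hcol2 : c (R.face (R.face q)) = 1 := by rw [hc.face_inv, hc.face_inv, h1]
    have hcol2' : c (R.face (R.face q')) = 1 := by rw [hc.face_inv, hc.face_inv, h1']
    by_cases e1 : q' = q
    · right; rw [e1]; exact hsame
    by_cases e2 : q' = R.face (R.face q)
    · right
      rw [e2, face_four h4]
      exact hsame.symm
    rcases h.quad q' h1' h0' h4' with ⟨u1, u2⟩ | hs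
    · left
      have n1 : q'.fst ≠ a := fun e => e1 (out_unique hG hc e (h1'.trans h1.symm))
      have n2 : q'.fst ≠ c' := fun e => e2 (out_unique hG hc e (h1'.trans hcol2.symm))
      have n3 : (R.face (R.face q')).fst ≠ a := by
        intro e
        have e3 : R.face (R.face q') = q := out_unique hG hc e (hcol2'.trans h1.symm)
        apply e2
        apply R.face.injective
        apply R.face.injective
        rw [e3, face_four h4]
      have n4 : (R.face (R.face q')).fst ≠ c' := by
        intro e
        have e3 : R.face (R.face q') = R.face (R.face q) :=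
          out_unique hG hc e (hcol2'.trans hcol2.symm)
        exact e1 (R.face.injective (R.face.injective e3))
      refine ⟨?_, ?_⟩
      · rw [Perm.mul_apply, u1, swap_apply_of_ne_of_ne n1 n2]
      · rw [Perm.mul_apply, u2, swap_apply_of_ne_of_ne n3 n4]
    · right
      exact hM.1 _ _ hs

omit hG hc in
/-- walking around a face -/
lemma around (τ : Perm V) (g : G.Dart)
    (h : ∀ g', R.face.SameCycle g g' → g' ≠ g → τ.SameCycle g'.fst g'.snd) :
    τ.SameCycle g.fst g.snd := by
  have hpos : 0 < minimalPeriod R.face g :=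
    minimalPeriod_pos_of_mem_periodicPts (perm_mem_periodicPts _ _)
  have key : ∀ j, 1 ≤ j → j ≤ minimalPeriod R.face g →
      τ.SameCycle g.snd ((R.face ^ j) g).fst := by
    intro j hj
    induction j, hj using Nat.le_induction with
    | base => intro _; rw [pow_one, fst_face]
    | succ j hj ih =>
      intro hle
      have h1 := ih (by omega)
      have hne : (R.face ^ j) g ≠ g := by
        intro e
        have : IsPeriodicPt R.face j g := by
          unfold IsPeriodicPt IsFixedPt
          rw [← Perm.coe_pow]; exact e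
        exact not_isPeriodicPt_of_pos_of_lt_minimalPeriod (by omega) (by omega) this
      have h2 := h _ (sameCycle_pow_right.2 SameCycle.rfl) hne
      rw [pow_succ', Perm.mul_apply, fst_face]
      exact h1.trans h2
  have := key _ hpos le_rfl
  have e : (R.face ^ minimalPeriod R.face g) g = g := by
    have := isPeriodicPt_minimalPeriod R.face g
    unfold IsPeriodicPt IsFixedPt at this
    rw [← Perm.coe_pow] at this; exact this
  rw [e] at this
  exact this.symm


/-- Main theorem (general in/out form). -/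
theorem hamiltonian_main (hconn : G.Connected) (P : G.Dart → Prop)
    (hP : ∀ d, P (R.face d) ↔ P d)
    (hP1 : ∀ d, P d → c d = 1) (hP4 : ∀ d, P d → faceSize R d ≠ 4)
    (hi : ∀ g g' : G.Dart, c g = 0 → R.face.SameCycle g g' → P g.symm → P g'.symm → g = g')
    (ho : ∀ g g' : G.Dart, c g = 2 → R.face.SameCycle g g' →
      (c g.symm = 1 ∧ faceSize R g.symm ≠ 4 ∧ ¬ P g.symm) →
      (c g'.symm = 1 ∧ faceSize R g'.symm ≠ 4 ∧ ¬ P g'.symm) → g = g') :
    G.IsHamiltonian := by
  classical
  let μ : Perm V → ℕ := fun τ => (Finset.univ.filter fun p : V × V => τ.SameCycle p.1 p.2).card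
  obtain ⟨τ, hτ, hmax⟩ := Set.exists_max_image {τ : Perm V | Inv R c P τ} μ (Set.toFinite _)
    ⟨_, inv_init hG hc P hP hP1 hP4 hi⟩
  have hτ : Inv R c P τ := hτ
  -- all quadrilaterals are merged
  have hquad : ∀ q, c q = 1 → c q.symm = 0 → faceSize R q = 4 →
      τ.SameCycle q.fst (R.face (R.face q)).fst := by
    intro q h1 h0 h4
    by_contra hns
    obtain ⟨hI, hco, hnew⟩ := inv_step hG hc P hτ h1 h0 h4 hns
    have hle := hmax _ hI
    have hlt : μ τ < μ (swap q.fst (R.face (R.face q)).fst * τ) := by
      apply Finset.card_lt_card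
      rw [Finset.ssubset_iff_of_subset]
      · refine ⟨(q.fst, (R.face (R.face q)).fst), ?_, ?_⟩
        · simp only [Finset.mem_filter, Finset.mem_univ, true_and]; exact hnew
        · simp only [Finset.mem_filter, Finset.mem_univ, true_and]; exact hns
      · intro p hp
        simp only [Finset.mem_filter, Finset.mem_univ, true_and] at hp ⊢
        exact hco _ _ hp
    omega
  -- colour-1 darts on quadrilaterals with opposite colour 2
  have hq12 : ∀ f, c f = 1 → c f.symm = 2 → faceSize R f = 4 → τ.SameCycle f.fst f.snd := by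
    intro f h1 h2 h4
    obtain ⟨q, rfl⟩ := R.face.surjective f
    have hq1 : c q = 1 := by rw [← hc.face_inv, h1]
    have hq4 : faceSize R q = 4 := by rw [← faceSize_face, h4]
    have hq0 : c q.symm = 0 := by
      apply fin3_eq0
      · have := hc.symm_ne q; rwa [hq1] at this
      · intro h; exact col_alt hG hc q (h2.trans h.symm)
    have e1 : τ.SameCycle q.snd q.fst := hτ.col0 q.symm hq0
    have e2 := hquad q hq1 hq0 hq4
    rw [fst_face, snd_eq_fst_face (R := R) (R.face q)]
    exact e1.trans e2
  -- all colour-1 darts with opposite colour 2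
  have h12 : ∀ f, c f = 1 → c f.symm = 2 → τ.SameCycle f.fst f.snd := by
    intro f h1 h2
    by_cases h4 : faceSize R f = 4
    · exact hq12 f h1 h2 h4
    by_cases hPf : P f
    · exact hτ.insP f hPf h2
    have : τ.SameCycle f.symm.fst f.symm.snd := by
      apply around
      intro g' hs hne
      have hg2 : c g' = 2 := by
        obtain ⟨k, hk⟩ := hs.exists_nat_pow_eq
        rw [← hk]
        have : ∀ k : ℕ, c ((R.face ^ k) f.symm) = 2 := by
          intro k
          induction k with
          | zero => simpa using h2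
          | succ k ih => rw [pow_succ', Perm.mul_apply, hc.face_inv, ih]
        exact this k
      by_cases hg0 : c g'.symm = 0
      · exact (hτ.col0 g'.symm hg0).symm
      have hg1 : c g'.symm = 1 := by
        have h3 := hc.symm_ne g'
        rw [hg2] at h3
        revert h3 hg0
        generalize c g'.symm = x
        revert x
        decide
      have hss : c g'.symm.symm = 2 := by rw [Dart.symm_symm, hg2]
      by_cases hg4 : faceSize R g'.symm = 4
      · exact (hq12 g'.symm hg1 hss hg4).symm
      by_cases hgP : P g'.symm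
      · exact (hτ.insP g'.symm hgP hss).symm
      exfalso
      apply hne
      refine (ho f.symm g' h2 hs ?_ ⟨hg1, hg4, hgP⟩).symm
      rw [Dart.symm_symm]
      exact ⟨h1, h4, hPf⟩
    exact this.symm
  have hedge : ∀ d : G.Dart, τ.SameCycle d.fst d.snd := by
    intro d
    by_cases h0 : c d = 0
    · exact hτ.col0 d h0
    by_cases h0' : c d.symm = 0
    · exact (hτ.col0 d.symm h0').symm
    have hne := hc.symm_ne d
    by_cases h1 : c d = 1
    · apply h12 d h1
      apply fin3_eq2 _ _ h0'
      rwa [h1] at hne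
    · have h2 : c d = 2 := fin3_eq2 _ h1 h0
      have h1' : c d.symm = 1 := by
        rw [h2] at hne
        revert hne h0'
        generalize c d.symm = x
        revert x
        decide
      exact (h12 d.symm h1' (by rw [Dart.symm_symm, h2])).symm
  have hall : ∀ x y, τ.SameCycle x y := by
    intro x y
    obtain ⟨p⟩ := hconn.preconnected x y
    induction p with
    | nil => exact SameCycle.rfl
    | cons hadj _ ih => exact (hedge ⟨(_, _), hadj⟩).trans ih
  apply hamiltonian_of_perm τ hτ.adj hall
  obtain ⟨v⟩ := hconn.nonempty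
  have := G.degree_lt_card_verts v
  rw [hG v] at this
  omega

end main

end Vale.Agent.Lib.P039
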