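import Vale.Agent.Lib.P039.Defs

open Equiv Equiv.Perm Function SimpleGraph

namespace Vale.Agent.Lib.P039

set_option linter.unusedSectionVars false

variable {V : Type*} [Fintype V] [DecidableEq V] {G : SimpleGraph V} [DecidableRel G.Adj]

variable (R : RotationSystem G)

lemma face_apply (d : G.Dart) : R.face d = R.rot d.symm := rfl

lemma fst_face (d : G.Dart) : (R.face d).fst = d.snd := by
  rw [face_apply, R.fst_rot]; rfl

lemma face_symm_eq (d : G.Dart) : R.face d.symm = R.rot d := by
  rw [face_apply, Dart.symm_symm]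

lemma isCycleOn_rot (v : V) :
    R.rot.IsCycleOn ((Finset.univ.filter fun d : G.Dart => d.fst = v : Finset G.Dart) : Set G.Dart) := by
  refine ⟨⟨?_, R.rot.injective.injOn, ?_⟩, ?_⟩
  · intro d hd
    simp only [Finset.coe_filter, Finset.mem_univ, true_and, Set.mem_ofPred_eq] at hd ⊢
    rw [R.fst_rot, hd]
  · intro d hd
    simp only [Finset.coe_filter, Finset.mem_univ, true_and, Set.mem_ofPred_eq] at hd
    refine ⟨R.rot.symm d, ?_, by simp⟩
    simp only [Finset.coe_filter, Finset.mem_univ, true_and, Set.mem_ofPred_eq]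
    rw [← hd, ← R.fst_rot (R.rot.symm d)]; simp
  · intro d hd d' hd'
    simp only [Finset.coe_filter, Finset.mem_univ, true_and, Set.mem_ofPred_eq] at hd hd'
    exact R.sameCycle_rot d d' (hd.trans hd'.symm)

lemma rot_cube (hG : G.IsRegularOfDegree 3) (d : G.Dart) : R.rot (R.rot (R.rot d)) = d := by
  have h := (isCycleOn_rot R d.fst).pow_card_apply (a := d) (by simp)
  rw [G.dart_fst_fiber_card_eq_degree, hG d.fst] at h
  simpa [pow_succ, Perm.mul_apply] using h

lemma exists_rot_pow (hG : G.IsRegularOfDegree 3) (d d' : G.Dart) (h : d.fst = d'.fst) :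
    d' = d ∨ d' = R.rot d ∨ d' = R.rot (R.rot d) := by
  obtain ⟨n, hn, hn'⟩ := (isCycleOn_rot R d.fst).exists_pow_eq (a := d) (b := d') (by simp) (by simp [h])
  rw [G.dart_fst_fiber_card_eq_degree, hG d.fst] at hn
  interval_cases n
  · left; simpa using hn'.symm
  · right; left; simpa using hn'.symm
  · right; right; simpa [pow_succ, Perm.mul_apply] using hn'.symm

variable {R} {c : G.Dart → Fin 3}

lemma col_rot (hc : IsProperFaceColouring R c) (d : G.Dart) : c (R.rot d) ≠ c d := by
  rw [← face_symm_eq, hc.face_inv]; exact hc.symm_ne d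

lemma out_unique (hG : G.IsRegularOfDegree 3) (hc : IsProperFaceColouring R c) {d d' : G.Dart}
    (h : d.fst = d'.fst) (hcol : c d = c d') : d = d' := by
  rcases exists_rot_pow R hG d d' h with h1 | h1 | h1
  · exact h1.symm
  · exact absurd (by rw [h1] at hcol; exact hcol.symm) (col_rot hc d)
  · exfalso
    have h2 : R.rot d' = d := by rw [h1]; exact rot_cube R hG d
    have := col_rot hc d'
    rw [h2] at this
    exact this hcol

lemma in_unique (hG : G.IsRegularOfDegree 3) (hc : IsProperFaceColouring R c) {d d' : G.Dart}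
    (h : d.snd = d'.snd) (hcol : c d = c d') : d = d' := by
  apply R.face.injective
  apply out_unique hG hc
  · rw [fst_face, fst_face, h]
  · rw [hc.face_inv, hc.face_inv, hcol]

lemma col_alt (hG : G.IsRegularOfDegree 3) (hc : IsProperFaceColouring R c) (d : G.Dart) :
    c (R.face d).symm ≠ c d.symm := by
  intro h
  have h1 : c (R.face d).symm = c (R.rot (R.rot d.symm)) := by
    rw [← hc.face_inv (R.face d).symm, face_symm_eq, face_apply]
  rw [h1] at h
  have h2 : R.rot (R.rot d.symm) = d.symm := by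
    apply out_unique hG hc _ h
    rw [R.fst_rot, R.fst_rot]
  have h3 : R.rot d.symm = d.symm := by
    have := rot_cube R hG d.symm
    rw [h2] at this
    exact this
  exact col_rot hc d.symm (by rw [h3])

lemma fin3_cover : ∀ a b c k : Fin 3, b ≠ a → c ≠ b → a ≠ c → k = a ∨ k = b ∨ k = c := by decide

lemma exists_out (hG : G.IsRegularOfDegree 3) (hc : IsProperFaceColouring R c) (v : V) (k : Fin 3) :
    ∃ d : G.Dart, d.fst = v ∧ c d = k := by
  have hpos : 0 < G.degree v := by rw [hG v]; norm_num
  obtain ⟨w, hw⟩ := (G.degree_pos_iff_exists_adj v).1 hpos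
  let d : G.Dart := ⟨(v, w), hw⟩
  have h1 := col_rot hc d
  have h2 := col_rot hc (R.rot d)
  have h3 := col_rot hc (R.rot (R.rot d))
  rw [rot_cube R hG d] at h3
  rcases fin3_cover _ _ _ k h1 h2 h3 with h | h | h
  · exact ⟨d, rfl, h.symm⟩
  · exact ⟨R.rot d, R.fst_rot d, h.symm⟩
  · exact ⟨R.rot (R.rot d), by rw [R.fst_rot, R.fst_rot], h.symm⟩

end Vale.Agent.Lib.P039
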